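import Vale.Agent.P219.Model

namespace Vale.Agent.P219

open MeasureTheory Set

variable {f : ℝ → ℝ} {b R : ℝ}

lemma hasDerivAt_f (hf : ContDiff ℝ 2 f) (r : ℝ) : HasDerivAt f (deriv f r) r :=
  ((hf.differentiable (by norm_num)) r).hasDerivAt

lemma contDiff_deriv (hf : ContDiff ℝ 2 f) : ContDiff ℝ 1 (deriv f) := by
  have : ContDiff ℝ (1 + 1) f := by
    have h2 : ((1 : WithTop ℕ∞) + 1) = 2 := by norm_num
    rw [h2]; exact hf
  exact (contDiff_succ_iff_deriv.1 this).2.2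

lemma hasDerivAt_f' (hf : ContDiff ℝ 2 f) (r : ℝ) :
    HasDerivAt (deriv f) (deriv (deriv f) r) r :=
  (((contDiff_deriv hf).differentiable (by norm_num)) r).hasDerivAt

lemma continuous_f (hf : ContDiff ℝ 2 f) : Continuous f := hf.continuous

lemma continuous_f' (hf : ContDiff ℝ 2 f) : Continuous (deriv f) := (contDiff_deriv hf).continuous

lemma curv_ineq (hpos : ∀ r ∈ Ioc 0 R, 0 < f r)
    (hcurv : ∀ r ∈ Ioc 0 R, - deriv (deriv f) r / f r ≤ - b ^ 2) {r : ℝ} (hr : r ∈ Ioc 0 R) :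
    b ^ 2 * f r ≤ deriv (deriv f) r := by
  have h := hcurv r hr
  rw [div_le_iff₀ (hpos r hr)] at h
  linarith

lemma f_nonneg (h0 : f 0 = 0) (hpos : ∀ r ∈ Ioc 0 R, 0 < f r) {r : ℝ} (hr : r ∈ Icc 0 R) :
    0 ≤ f r := by
  rcases eq_or_lt_of_le hr.1 with h | h
  · rw [← h, h0]
  · exact (hpos r ⟨h, hr.2⟩).le

lemma one_le_deriv (hf : ContDiff ℝ 2 f) (h1 : deriv f 0 = 1)
    (hpos : ∀ r ∈ Ioc 0 R, 0 < f r)
    (hcurv : ∀ r ∈ Ioc 0 R, - deriv (deriv f) r / f r ≤ - b ^ 2) {r : ℝ} (hr : r ∈ Icc 0 R) :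
    1 ≤ deriv f r := by
  have hm : MonotoneOn (deriv f) (Icc 0 R) := by
    refine monotoneOn_of_deriv_nonneg (convex_Icc 0 R) (continuous_f' hf).continuousOn ?_ ?_
    · intro x _
      exact (hasDerivAt_f' hf x).differentiableAt.differentiableWithinAt
    · intro x hx
      rw [interior_Icc] at hx
      have hx' : x ∈ Ioc 0 R := ⟨hx.1, hx.2.le⟩
      have := curv_ineq hpos hcurv hx'
      have h2 := hpos x hx'
      have h3 : 0 ≤ b ^ 2 * f x := by positivity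
      linarith
  have := hm (left_mem_Icc.2 (hr.1.trans hr.2)) hr hr.1
  rwa [h1] at this

lemma one_le_energy (hf : ContDiff ℝ 2 f) (h0 : f 0 = 0) (h1 : deriv f 0 = 1)
    (hpos : ∀ r ∈ Ioc 0 R, 0 < f r)
    (hcurv : ∀ r ∈ Ioc 0 R, - deriv (deriv f) r / f r ≤ - b ^ 2) {r : ℝ} (hr : r ∈ Icc 0 R) :
    1 + b ^ 2 * f r ^ 2 ≤ deriv f r ^ 2 := by
  have hd : ∀ x, HasDerivAt (fun x => deriv f x ^ 2 - b ^ 2 * f x ^ 2)
      (2 * deriv f x * (deriv (deriv f) x - b ^ 2 * f x)) x := by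
    intro x
    have e1 := (hasDerivAt_f' hf x).pow 2
    have e2 := ((hasDerivAt_f hf x).pow 2).const_mul (b ^ 2)
    have e3 := e1.sub e2
    have e4 : HasDerivAt (fun x => deriv f x ^ 2 - b ^ 2 * f x ^ 2)
        ((2 : ℕ) * deriv f x ^ (2 - 1) * deriv (deriv f) x
          - b ^ 2 * ((2 : ℕ) * f x ^ (2 - 1) * deriv f x)) x := e3
    refine e4.congr_deriv ?_
    norm_num
    ring
  have hm : MonotoneOn (fun x => deriv f x ^ 2 - b ^ 2 * f x ^ 2) (Icc 0 R) := by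
    refine monotoneOn_of_deriv_nonneg (convex_Icc 0 R) ?_ ?_ ?_
    · exact (((continuous_f' hf).pow 2).sub (continuous_const.mul ((continuous_f hf).pow 2))).continuousOn
    · intro x _
      exact (hd x).differentiableAt.differentiableWithinAt
    · intro x hx
      rw [interior_Icc] at hx
      have hx' : x ∈ Ioc 0 R := ⟨hx.1, hx.2.le⟩
      rw [(hd x).deriv]
      have a1 := curv_ineq hpos hcurv hx'
      have a2 := one_le_deriv hf h1 hpos hcurv (r := x) ⟨hx.1.le, hx.2.le⟩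
      have a3 : 0 ≤ deriv (deriv f) x - b ^ 2 * f x := by linarith
      have a4 : 0 ≤ 2 * deriv f x := by linarith
      exact mul_nonneg a4 a3
  have := hm (left_mem_Icc.2 (hr.1.trans hr.2)) hr hr.1
  simp only [h0, h1] at this
  nlinarith

lemma sqrt_le_deriv (hf : ContDiff ℝ 2 f) (h0 : f 0 = 0) (h1 : deriv f 0 = 1)
    (hpos : ∀ r ∈ Ioc 0 R, 0 < f r)
    (hcurv : ∀ r ∈ Ioc 0 R, - deriv (deriv f) r / f r ≤ - b ^ 2) {r : ℝ} (hr : r ∈ Icc 0 R) :
    Real.sqrt (1 + b ^ 2 * f r ^ 2) ≤ deriv f r := by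
  have a1 := one_le_energy hf h0 h1 hpos hcurv hr
  have a2 := one_le_deriv hf h1 hpos hcurv hr
  calc Real.sqrt (1 + b ^ 2 * f r ^ 2) ≤ Real.sqrt (deriv f r ^ 2) := Real.sqrt_le_sqrt a1
    _ = deriv f r := Real.sqrt_sq (by linarith)

/-- substitution `t = f r`. -/
lemma integral_subst (hf : ContDiff ℝ 2 f) (h0 : f 0 = 0) {g : ℝ → ℝ} (hg : Continuous g) (r : ℝ) :
    ∫ x in (0 : ℝ)..r, g (f x) * deriv f x = ∫ t in (0 : ℝ)..(f r), g t := by
  have h := intervalIntegral.integral_comp_mul_deriv (a := 0) (b := r) (f := f) (f' := deriv f)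
    (g := g) (fun x _ => hasDerivAt_f hf x) (continuous_f' hf).continuousOn hg
  rw [h0] at h
  exact h

lemma pow_le_gam_mul (N : ℕ) (hf : ContDiff ℝ 2 f) (h0 : f 0 = 0) (h1 : deriv f 0 = 1)
    (hpos : ∀ r ∈ Ioc 0 R, 0 < f r)
    (hcurv : ∀ r ∈ Ioc 0 R, - deriv (deriv f) r / f r ≤ - b ^ 2) {r : ℝ} (hr : r ∈ Icc 0 R) :
    f r ^ N ≤ gam N b (f r) * deriv f r := by
  have a1 := sqrt_le_deriv hf h0 h1 hpos hcurv hr
  have a2 := sqrt_pos' b (f r)
  have a3 : 0 ≤ f r ^ N := pow_nonneg (f_nonneg h0 hpos hr) N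
  unfold gam
  rw [div_mul_eq_mul_div, le_div_iff₀ a2]
  exact mul_le_mul_of_nonneg_left a1 a3

lemma integral_pow_le (N : ℕ) (hf : ContDiff ℝ 2 f) (hR : 0 < R) (h0 : f 0 = 0)
    (h1 : deriv f 0 = 1) (hpos : ∀ r ∈ Ioc 0 R, 0 < f r)
    (hcurv : ∀ r ∈ Ioc 0 R, - deriv (deriv f) r / f r ≤ - b ^ 2) :
    ∫ t in (0 : ℝ)..R, f t ^ N ≤ ∫ t in (0 : ℝ)..(f R), gam N b t := by
  rw [← integral_subst hf h0 (continuous_gam N b) R]
  refine intervalIntegral.integral_mono_on hR.le ?_ ?_ ?_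
  · exact ((continuous_f hf).pow N).intervalIntegrable _ _
  · exact (((continuous_gam N b).comp (continuous_f hf)).mul (continuous_f' hf)).intervalIntegrable _ _
  · intro x hx
    exact pow_le_gam_mul N hf h0 h1 hpos hcurv hx

end Vale.Agent.P219
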