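import Mathlib

/-!
# P219: model spaces and rotationally symmetric metrics: definitions
-/

namespace Vale.Agent.P219

/-- `sn_b(r) = r` if `b = 0` and `sinh (b r) / b` otherwise. -/
noncomputable def sn (b r : ℝ) : ℝ := if b = 0 then r else Real.sinh (b * r) / b

/-- `ω_n`: the volume of the Euclidean unit ball of `ℝ^n`. -/
noncomputable def omega (n : ℕ) : ℝ :=
  (MeasureTheory.volume (Metric.ball (0 : EuclideanSpace ℝ (Fin n)) 1)).toReal

/-- Boundary area of the centred ball of radius `r` for the metric `dr^2 + f(r)^2 g_{S^{n-1}}`. -/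
noncomputable def warpArea (n : ℕ) (f : ℝ → ℝ) (r : ℝ) : ℝ := n * omega n * f r ^ (n - 1)

/-- Volume of the centred ball of radius `r` for the metric `dr^2 + f(r)^2 g_{S^{n-1}}`. -/
noncomputable def warpVol (n : ℕ) (f : ℝ → ℝ) (r : ℝ) : ℝ :=
  n * omega n * ∫ t in (0 : ℝ)..r, f t ^ (n - 1)

/-- The model isoperimetric profile `I_κ(V) = A_κ(V_κ^{-1}(V))`, `κ = - b^2`, where `A_κ`, `V_κ` are
the area and the volume of balls in the space form (`f = sn_b`), and the inverse of `V_κ` is taken on
`[0, ∞)`. -/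
noncomputable def profile (n : ℕ) (b V : ℝ) : ℝ :=
  warpArea n (sn b) (Function.invFunOn (warpVol n (sn b)) (Set.Ici 0) V)

end Vale.Agent.P219
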