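import Vale.Agent.P219.Compare

namespace Vale.Agent.P219

open MeasureTheory Set

variable {f : ℝ → ℝ} {b R : ℝ}

lemma strictMono_integral_gam_zero (b : ℝ) :
    StrictMono (fun y => ∫ t in (0 : ℝ)..y, gam 0 b t) := by
  refine strictMono_of_deriv_pos fun y => ?_
  rw [(continuous_gam 0 b).deriv_integral]
  unfold gam
  have := sqrt_pos' b y
  positivity

/-- there is a model radius with the same volume, and it is at most the radius `ρ1` with
`sn ρ1 = f R`. -/
lemma exists_model_radius (N : ℕ) (hf : ContDiff ℝ 2 f) (hR : 0 < R) (h0 : f 0 = 0)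
    (h1 : deriv f 0 = 1) (hpos : ∀ r ∈ Ioc 0 R, 0 < f r)
    (hcurv : ∀ r ∈ Ioc 0 R, - deriv (deriv f) r / f r ≤ - b ^ 2) :
    ∃ ρ, 0 ≤ ρ ∧ (∫ t in (0 : ℝ)..ρ, sn b t ^ N) = (∫ t in (0 : ℝ)..R, f t ^ N) ∧
      sn b ρ ≤ f R := by
  have hfR : 0 < f R := hpos R ⟨hR, le_rfl⟩
  obtain ⟨ρ1, hρ1, hs⟩ := exists_sn_eq b hfR.le
  have hW : ∫ t in (0 : ℝ)..R, f t ^ N ≤ ∫ t in (0 : ℝ)..ρ1, sn b t ^ N := by
    rw [← integral_gam_sn, hs]
    exact integral_pow_le N hf hR h0 h1 hpos hcurv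
  have hW0 : 0 ≤ ∫ t in (0 : ℝ)..R, f t ^ N := by
    refine intervalIntegral.integral_nonneg hR.le fun x hx => ?_
    exact pow_nonneg (f_nonneg h0 hpos hx) N
  have hivt := intermediate_value_Icc hρ1 (continuous_integral_sn N b).continuousOn
  have hmem : (∫ t in (0 : ℝ)..R, f t ^ N) ∈ Icc (∫ t in (0 : ℝ)..(0 : ℝ), sn b t ^ N)
      (∫ t in (0 : ℝ)..ρ1, sn b t ^ N) := ⟨by simpa using hW0, hW⟩
  obtain ⟨ρ, hρ, hρ2⟩ := hivt hmem
  refine ⟨ρ, hρ.1, hρ2, ?_⟩
  rw [← hs]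
  exact (strictMono_sn b).monotone hρ.2

lemma eq_sn_of_integral_eq (N : ℕ) (hf : ContDiff ℝ 2 f) (hR : 0 < R) (h0 : f 0 = 0)
    (h1 : deriv f 0 = 1) (hpos : ∀ r ∈ Ioc 0 R, 0 < f r)
    (hcurv : ∀ r ∈ Ioc 0 R, - deriv (deriv f) r / f r ≤ - b ^ 2)
    (heq : ∫ t in (0 : ℝ)..R, f t ^ N = ∫ t in (0 : ℝ)..(f R), gam N b t) :
    ∀ r ∈ Icc 0 R, f r = sn b r := by
  rw [← integral_subst hf h0 (continuous_gam N b) R] at heq
  have hc1 : Continuous fun x => f x ^ N := (continuous_f hf).pow N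
  have hc2 : Continuous fun x => gam N b (f x) * deriv f x :=
    ((continuous_gam N b).comp (continuous_f hf)).mul (continuous_f' hf)
  -- the difference vanishes identically
  have hzero : ∀ x ∈ Icc 0 R, gam N b (f x) * deriv f x - f x ^ N = 0 := by
    by_contra hcon
    push Not at hcon
    obtain ⟨c, hc, hne⟩ := hcon
    have hge : ∀ x ∈ Icc 0 R, 0 ≤ gam N b (f x) * deriv f x - f x ^ N := fun x hx =>
      sub_nonneg.2 (pow_le_gam_mul N hf h0 h1 hpos hcurv hx)
    have hpos' : 0 < ∫ x in (0 : ℝ)..R, (gam N b (f x) * deriv f x - f x ^ N) := by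
      refine intervalIntegral.integral_pos hR (hc2.sub hc1).continuousOn
        (fun x hx => hge x ⟨hx.1.le, hx.2⟩) ⟨c, hc, lt_of_le_of_ne (hge c hc) (Ne.symm hne)⟩
    rw [intervalIntegral.integral_sub (hc2.intervalIntegrable _ _) (hc1.intervalIntegrable _ _),
      heq] at hpos'
    simp at hpos'
  -- hence `f' = sqrt (1 + b^2 f^2)`
  have hone : ∀ x ∈ Icc 0 R, gam 0 b (f x) * deriv f x = 1 := by
    intro x hx
    rcases eq_or_lt_of_le hx.1 with h | h
    · rw [← h, h0, h1]; simp [gam]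
    · have hfx := hpos x ⟨h, hx.2⟩
      have hz := hzero x hx
      have hs := sqrt_pos' b (f x)
      unfold gam at hz ⊢
      have hp : 0 < f x ^ N := pow_pos hfx N
      have : f x ^ N * (1 / Real.sqrt (1 + b ^ 2 * f x ^ 2) * deriv f x - 1) = 0 := by
        rw [← hz]; field_simp
      rcases mul_eq_zero.1 this with h' | h'
      · exact absurd h' hp.ne'
      · simp only [pow_zero]; linarith
  intro r hr
  apply (strictMono_integral_gam_zero b).injective
  show ∫ t in (0 : ℝ)..(f r), gam 0 b t = ∫ t in (0 : ℝ)..(sn b r), gam 0 b t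
  rw [integral_gam_sn, ← integral_subst hf h0 (continuous_gam 0 b) r]
  refine intervalIntegral.integral_congr fun x hx => ?_
  rw [uIcc_of_le hr.1] at hx
  simp only [pow_zero]
  exact hone x ⟨hx.1, hx.2.trans hr.2⟩

theorem main {n : ℕ} (hn : 2 ≤ n) (hf : ContDiff ℝ 2 f) (hR : 0 < R) (h0 : f 0 = 0)
    (h1 : deriv f 0 = 1) (hpos : ∀ r ∈ Ioc 0 R, 0 < f r)
    (hcurv : ∀ r ∈ Ioc 0 R, - deriv (deriv f) r / f r ≤ - b ^ 2) :
    profile n b (warpVol n f R) ≤ warpArea n f R ∧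
      (profile n b (warpVol n f R) = warpArea n f R ↔ ∀ r ∈ Icc 0 R, f r = sn b r) := by
  have hK : 0 < (n : ℝ) * omega n :=
    mul_pos (by exact_mod_cast (by omega : 0 < n)) (omega_pos (by omega))
  obtain ⟨ρ, hρ, hvol, hle⟩ := exists_model_radius (n - 1) hf hR h0 h1 hpos hcurv
  have hV : warpVol n f R = warpVol n (sn b) ρ := by
    unfold warpVol; rw [hvol]
  have hprof : profile n b (warpVol n f R) = warpArea n (sn b) ρ := by
    rw [hV, profile_warpVol (by omega) b hρ]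
  have hsn0 : 0 ≤ sn b ρ := sn_nonneg b hρ
  have hfR : 0 < f R := hpos R ⟨hR, le_rfl⟩
  refine ⟨?_, ?_, ?_⟩
  · rw [hprof]
    unfold warpArea
    exact mul_le_mul_of_nonneg_left (pow_le_pow_left₀ hsn0 hle _) hK.le
  · intro heq
    rw [hprof] at heq
    unfold warpArea at heq
    have h2 := mul_left_cancel₀ hK.ne' heq
    have h3 : sn b ρ = f R := (pow_left_inj₀ hsn0 hfR.le (by omega)).1 h2
    refine eq_sn_of_integral_eq (n - 1) hf hR h0 h1 hpos hcurv ?_
    rw [← hvol, ← h3, integral_gam_sn]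
  · intro hall
    have hV' : warpVol n f R = warpVol n (sn b) R := by
      unfold warpVol
      congr 1
      refine intervalIntegral.integral_congr fun x hx => ?_
      rw [uIcc_of_le hR.le] at hx
      simp only [hall x hx]
    rw [hV', profile_warpVol (by omega) b hR.le]
    unfold warpArea
    rw [hall R ⟨hR.le, le_rfl⟩]

end Vale.Agent.P219
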