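import Vale.Agent.P219.Defs

namespace Vale.Agent.P219

open MeasureTheory Set

/-- `cs_b(r) = cosh (b r)`. -/
noncomputable def cs (b r : ℝ) : ℝ := Real.cosh (b * r)

lemma hasDerivAt_sn (b r : ℝ) : HasDerivAt (sn b) (cs b r) r := by
  by_cases hb : b = 0
  · subst hb
    have : sn 0 = id := by funext x; simp [sn]
    rw [this]
    simpa [cs] using hasDerivAt_id r
  · have h1 : HasDerivAt (fun x => b * x) b r := by simpa using (hasDerivAt_id r).const_mul b
    have h2 := (Real.hasDerivAt_sinh (b * r)).comp r h1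
    have h3 := h2.div_const b
    have : sn b = fun x => (Real.sinh ∘ fun x => b * x) x / b := by funext x; simp [sn, hb]
    rw [this]
    have h4 : cs b r = Real.cosh (b * r) * b / b := by
      unfold cs
      field_simp
    rw [h4]
    exact h3

lemma cs_sq (b r : ℝ) : cs b r ^ 2 = 1 + b ^ 2 * sn b r ^ 2 := by
  by_cases hb : b = 0
  · subst hb; simp [cs]
  · unfold cs sn
    rw [if_neg hb, Real.cosh_sq]
    field_simp
    ring

lemma cs_pos (b r : ℝ) : 0 < cs b r := Real.cosh_pos _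

lemma one_le_cs (b r : ℝ) : 1 ≤ cs b r := Real.one_le_cosh _

lemma sn_zero (b : ℝ) : sn b 0 = 0 := by
  unfold sn; split_ifs <;> simp

lemma continuous_sn (b : ℝ) : Continuous (sn b) :=
  continuous_iff_continuousAt.2 fun r => (hasDerivAt_sn b r).continuousAt

lemma continuous_cs (b : ℝ) : Continuous (cs b) := by
  unfold cs; fun_prop

lemma strictMono_sn (b : ℝ) : StrictMono (sn b) := by
  refine strictMono_of_deriv_pos fun r => ?_
  rw [(hasDerivAt_sn b r).deriv]
  exact cs_pos b r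

lemma sn_nonneg (b : ℝ) {r : ℝ} (hr : 0 ≤ r) : 0 ≤ sn b r := by
  rw [← sn_zero b]; exact (strictMono_sn b).monotone hr

lemma sn_pos (b : ℝ) {r : ℝ} (hr : 0 < r) : 0 < sn b r := by
  rw [← sn_zero b]; exact strictMono_sn b hr

lemma le_sn (b : ℝ) {r : ℝ} (hr : 0 ≤ r) : r ≤ sn b r := by
  have h : MonotoneOn (fun x => sn b x - x) (Ici 0) := by
    refine monotoneOn_of_deriv_nonneg (convex_Ici 0) ?_ ?_ ?_
    · exact ((continuous_sn b).sub continuous_id).continuousOn
    · intro x _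
      exact (((hasDerivAt_sn b x).sub (hasDerivAt_id x)).differentiableAt).differentiableWithinAt
    · intro x _
      have := ((hasDerivAt_sn b x).sub (hasDerivAt_id x)).deriv
      have h2 : deriv (fun x => sn b x - x) x = cs b x - 1 := this
      rw [h2]
      linarith [one_le_cs b x]
  have := h (mem_Ici.2 le_rfl) (mem_Ici.2 hr) hr
  simp only [sn_zero] at this
  linarith

lemma exists_sn_eq (b : ℝ) {y : ℝ} (hy : 0 ≤ y) : ∃ r, 0 ≤ r ∧ sn b r = y := by
  have h := intermediate_value_Icc hy (continuous_sn b).continuousOn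
  have hmem : y ∈ Icc (sn b 0) (sn b y) := ⟨by rw [sn_zero]; exact hy, le_sn b hy⟩
  obtain ⟨r, hr, hr2⟩ := h hmem
  exact ⟨r, hr.1, hr2⟩

/-- the weight `t^N / sqrt (1 + b^2 t^2)`. -/
noncomputable def gam (N : ℕ) (b t : ℝ) : ℝ := t ^ N / Real.sqrt (1 + b ^ 2 * t ^ 2)

lemma sqrt_pos' (b t : ℝ) : 0 < Real.sqrt (1 + b ^ 2 * t ^ 2) := by
  apply Real.sqrt_pos.2; positivity

lemma continuous_gam (N : ℕ) (b : ℝ) : Continuous (gam N b) := by
  unfold gam
  refine Continuous.div (by fun_prop) (by fun_prop) fun t => (sqrt_pos' b t).ne'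

lemma sqrt_cs (b r : ℝ) : Real.sqrt (1 + b ^ 2 * sn b r ^ 2) = cs b r := by
  rw [← cs_sq, Real.sqrt_sq (cs_pos b r).le]

/-- `∫_0^{sn ρ} gam = ∫_0^ρ sn^N`. -/
lemma integral_gam_sn (N : ℕ) (b ρ : ℝ) :
    ∫ t in (0 : ℝ)..(sn b ρ), gam N b t = ∫ t in (0 : ℝ)..ρ, sn b t ^ N := by
  have h := intervalIntegral.integral_comp_mul_deriv (a := 0) (b := ρ) (f := sn b) (f' := cs b)
    (g := gam N b) (fun x _ => hasDerivAt_sn b x) (continuous_cs b).continuousOn
    (continuous_gam N b)
  rw [sn_zero] at h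
  rw [← h]
  refine intervalIntegral.integral_congr fun x _ => ?_
  simp only [Function.comp, gam, sqrt_cs]
  have := (cs_pos b x).ne'
  field_simp

lemma omega_pos {n : ℕ} (hn : 1 ≤ n) : 0 < omega n := by
  unfold omega
  have : Nonempty (Fin n) := ⟨⟨0, by omega⟩⟩
  refine ENNReal.toReal_pos ?_ ?_
  · exact (Metric.measure_ball_pos volume _ one_pos).ne'
  · exact measure_ball_lt_top.ne

lemma strictMonoOn_integral_sn (N : ℕ) (b : ℝ) :
    StrictMonoOn (fun r => ∫ t in (0 : ℝ)..r, sn b t ^ N) (Ici 0) := by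
  have hc : Continuous fun t => sn b t ^ N := (continuous_sn b).pow N
  refine strictMonoOn_of_deriv_pos (convex_Ici 0) ?_ ?_
  · exact (intervalIntegral.continuous_primitive (fun a c => hc.intervalIntegrable a c) 0).continuousOn
  · intro x hx
    rw [interior_Ici] at hx
    rw [hc.deriv_integral]
    exact pow_pos (sn_pos b hx) N

lemma continuous_integral_sn (N : ℕ) (b : ℝ) :
    Continuous (fun r => ∫ t in (0 : ℝ)..r, sn b t ^ N) := by
  have hc : Continuous fun t => sn b t ^ N := (continuous_sn b).pow N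
  exact intervalIntegral.continuous_primitive (fun a c => hc.intervalIntegrable a c) 0

lemma profile_warpVol {n : ℕ} (hn : 1 ≤ n) (b : ℝ) {ρ : ℝ} (hρ : 0 ≤ ρ) :
    profile n b (warpVol n (sn b) ρ) = warpArea n (sn b) ρ := by
  unfold profile
  have hex : ∃ a ∈ Ici (0 : ℝ), warpVol n (sn b) a = warpVol n (sn b) ρ := ⟨ρ, hρ, rfl⟩
  obtain ⟨h1, h2⟩ := Function.invFunOn_pos hex
  have hK : 0 < (n : ℝ) * omega n := mul_pos (by exact_mod_cast hn) (omega_pos hn)
  unfold warpVol at h2
  have h3 := mul_left_cancel₀ hK.ne' h2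
  have h4 := (strictMonoOn_integral_sn (n - 1) b).injOn h1 (mem_Ici.2 hρ) h3
  have h5 : Function.invFunOn (warpVol n (sn b)) (Ici 0) (warpVol n (sn b) ρ) = ρ := h4
  rw [h5]

end Vale.Agent.P219
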